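import Vale.Agent.P159.T1.S.Stmts
import Vale.Agent.P159.T1.S.H376.Osc

/-! # P159, stage 2: energy and oscillation of the tent -/

open Finset
open Vale.Agent.P159.T1.D
open Vale.Agent.P159.T1.H775 (lap InBox stp)

namespace Vale.Agent.P159.T1.S.H130

/-! ### the sup norm -/

theorem nm_stp (d : Bool) (f : Z2) : nm (stp d f) ≤ nm f + 1 ∧ nm f ≤ nm (stp d f) + 1 := by
  cases d <;> simp only [nm, stp, Bool.false_eq_true, if_false, if_true] <;> omega

theorem ns_stp (r : ℕ) (d : Bool) (f : Z2) :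
    ns r (stp d f) ≤ ns r f + 1 ∧ ns r f ≤ ns r (stp d f) + 1 := by
  cases d <;> simp only [ns, nm, mir, stp, Bool.false_eq_true, if_false, if_true] <;> omega

theorem ns_le_nm (r : ℕ) (f : Z2) : ns r f ≤ nm f := min_le_left _ _

/-- the square box of faces -/
noncomputable def bx (L : ℕ) : Finset Z2 := Finset.Icc (-(L : ℤ)) L ×ˢ Finset.Icc (-(L : ℤ)) L

theorem mem_bx {L : ℕ} {f : Z2} : f ∈ bx L ↔ nm f ≤ L := by
  simp only [bx, Finset.mem_product, Finset.mem_Icc, nm]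
  omega

theorem card_bx (L : ℕ) : (bx L).card = (2 * L + 1) ^ 2 := by
  rw [bx, Finset.card_product, Int.card_Icc]
  have e : ((L : ℤ) + 1 - -(L : ℤ)).toNat = 2 * L + 1 := by omega
  rw [e]; ring

/-- sums of radial functions over boxes -/
theorem sum_bx_succ (g : ℕ → ℝ) (L : ℕ) :
    ∑ f ∈ bx (L + 1), g (nm f) = ∑ f ∈ bx L, g (nm f) + 8 * (L + 1) * g (L + 1) := by
  classical
  have hsub : bx L ⊆ bx (L + 1) := by
    intro f hf
    rw [mem_bx] at hf ⊢
    omega
  rw [← Finset.sum_sdiff hsub, add_comm]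
  congr 1
  have h1 : ∀ f ∈ bx (L + 1) \ bx L, g (nm f) = g (L + 1) := by
    intro f hf
    rw [Finset.mem_sdiff, mem_bx, mem_bx] at hf
    have : nm f = L + 1 := by omega
    rw [this]
  rw [Finset.sum_congr rfl h1, Finset.sum_const, nsmul_eq_mul, Finset.card_sdiff_of_subset hsub,
    card_bx, card_bx]
  have e : (2 * (L + 1) + 1) ^ 2 - (2 * L + 1) ^ 2 = 8 * (L + 1) := by
    have : (2 * (L + 1) + 1) ^ 2 = 8 * (L + 1) + (2 * L + 1) ^ 2 := by ring
    rw [this, Nat.add_sub_cancel]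
  rw [e]; push_cast; ring

theorem sum_bx_zero (g : ℕ → ℝ) : ∑ f ∈ bx 0, g (nm f) = g 0 := by
  have : bx 0 = {(0, 0)} := by simp [bx]
  rw [this, Finset.sum_singleton]
  simp [nm]

theorem sum2_bx (L : ℕ) :
    ∑ f ∈ bx L, 1 / (1 + nm f : ℝ) ^ 2 ≤ 1 + 8 * Real.log (L + 1) := by
  induction L with
  | zero =>
    rw [sum_bx_zero fun n => 1 / (1 + n : ℝ) ^ 2]
    simp
  | succ L ih =>
    rw [sum_bx_succ fun n => 1 / (1 + n : ℝ) ^ 2]
    have h1 : (1 : ℝ) / (L + 2) ≤ Real.log (L + 2) - Real.log (L + 1) := by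
      have h2 := Real.log_le_sub_one_of_pos (x := ((L : ℝ) + 1) / (L + 2)) (by positivity)
      rw [Real.log_div (by positivity) (by positivity)] at h2
      have h3 : ((L : ℝ) + 1) / (L + 2) - 1 = -(1 / (L + 2)) := by field_simp; ring
      linarith
    have h4 : 8 * ((L : ℝ) + 1) * (1 / (1 + ((L + 1 : ℕ) : ℝ)) ^ 2) ≤ 8 * (1 / (L + 2)) := by
      push_cast
      rw [show (1 + ((L : ℝ) + 1)) = L + 2 by ring, mul_one_div, mul_one_div,
        div_le_div_iff₀ (by positivity) (by positivity)]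
      nlinarith [(Nat.cast_nonneg L : (0 : ℝ) ≤ L)]
    push_cast
    push_cast at h4
    rw [show (L : ℝ) + 1 + 1 = L + 2 by ring]
    linarith

theorem sum4_bx (L : ℕ) :
    ∑ f ∈ bx L, 1 / (1 + nm f : ℝ) ^ 4 ≤ 9 - 8 / ((L : ℝ) + 1) := by
  induction L with
  | zero =>
    rw [sum_bx_zero fun n => 1 / (1 + n : ℝ) ^ 4]
    norm_num
  | succ L ih =>
    rw [sum_bx_succ fun n => 1 / (1 + n : ℝ) ^ 4]
    have h4 : 8 * ((L : ℝ) + 1) * (1 / (1 + ((L + 1 : ℕ) : ℝ)) ^ 4) ≤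
        8 / (L + 1) - 8 / (L + 2) := by
      have e : 8 / ((L : ℝ) + 1) - 8 / (L + 2) = 8 / ((L + 1) * (L + 2)) := by
        field_simp; ring
      rw [e]
      push_cast
      rw [show (1 + ((L : ℝ) + 1)) = L + 2 by ring, mul_one_div,
        div_le_div_iff₀ (by positivity) (by positivity)]
      have hL : (0 : ℝ) ≤ L := Nat.cast_nonneg L
      have h5 : ((L : ℝ) + 1) * (L + 1) * (L + 2) ≤ (L + 2) ^ 4 := by
        have : ((L : ℝ) + 1) * (L + 1) * (L + 2) ≤ (L + 2) * (L + 2) * (L + 2) := by gcongr <;> linarith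
        nlinarith [pow_pos (show (0 : ℝ) < L + 2 by linarith) 3]
      nlinarith
    push_cast
    push_cast at h4
    rw [show (L : ℝ) + 1 + 1 = L + 2 by ring]
    linarith

theorem sum2_le {S : Finset Z2} {L : ℕ} (hS : ∀ f ∈ S, nm f ≤ L) :
    ∑ f ∈ S, 1 / (1 + nm f : ℝ) ^ 2 ≤ 1 + 8 * Real.log (L + 1) :=
  (Finset.sum_le_sum_of_subset_of_nonneg (fun f hf => mem_bx.2 (hS f hf))
    fun f _ _ => by positivity).trans (sum2_bx L)

theorem exists_bd (S : Finset Z2) : ∃ L : ℕ, ∀ f ∈ S, nm f ≤ L :=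
  ⟨S.sup nm, fun _ hf => Finset.le_sup hf⟩

theorem sum4_le (S : Finset Z2) : ∑ f ∈ S, 1 / (1 + nm f : ℝ) ^ 4 ≤ 9 := by
  obtain ⟨L, hL⟩ := exists_bd S
  have h1 := (Finset.sum_le_sum_of_subset_of_nonneg (fun f hf => mem_bx.2 (hL f hf))
    fun f _ _ => by positivity).trans (sum4_bx L)
  have : (0 : ℝ) ≤ 8 / ((L : ℝ) + 1) := by positivity
  linarith

theorem row_Icc (L : ℕ) :
    ∑ i ∈ Finset.Icc (-(L : ℤ)) L, 1 / (1 + (i.natAbs : ℝ)) ^ 2 ≤ 3 - 2 / ((L : ℝ) + 1) := by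
  induction L with
  | zero => simp; norm_num
  | succ L ih =>
    have e : Finset.Icc (-((L + 1 : ℕ) : ℤ)) ((L + 1 : ℕ) : ℤ) =
        insert (-((L + 1 : ℕ) : ℤ)) (insert ((L + 1 : ℕ) : ℤ) (Finset.Icc (-(L : ℤ)) L)) := by
      ext i
      simp only [Finset.mem_Icc, Finset.mem_insert]
      omega
    rw [e, Finset.sum_insert (by simp only [Finset.mem_insert, Finset.mem_Icc]; omega),
      Finset.sum_insert (by simp only [Finset.mem_Icc]; omega), Int.natAbs_neg, Int.natAbs_natCast]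
    have h4 : 1 / (1 + ((L + 1 : ℕ) : ℝ)) ^ 2 ≤ 1 / (L + 1) - 1 / (L + 2) := by
      have e : 1 / ((L : ℝ) + 1) - 1 / (L + 2) = 1 / ((L + 1) * (L + 2)) := by
        field_simp; ring
      rw [e]
      push_cast
      rw [show (1 + ((L : ℝ) + 1)) = L + 2 by ring,
        div_le_div_iff₀ (by positivity) (by positivity)]
      nlinarith [(Nat.cast_nonneg L : (0 : ℝ) ≤ L)]
    push_cast at h4 ⊢
    rw [show (L : ℝ) + 1 + 1 = L + 2 by ring]
    have e1 : (2 : ℝ) / (L + 1) = 2 * (1 / (L + 1)) := by ring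
    have e2 : (2 : ℝ) / (L + 2) = 2 * (1 / (L + 2)) := by ring
    rw [e1] at ih
    rw [e2]
    linarith

/-- one row -/
theorem row_le (S : Finset Z2) (c : ℤ) (hS : ∀ f ∈ S, f.2 = c) :
    ∑ f ∈ S, 1 / (1 + nm f : ℝ) ^ 2 ≤ 3 := by
  classical
  obtain ⟨L, hL⟩ := exists_bd S
  have hinj : ∀ f ∈ S, ∀ g ∈ S, f.1 = g.1 → f = g := fun f hf g hg h =>
    Prod.ext h ((hS f hf).trans (hS g hg).symm)
  calc ∑ f ∈ S, 1 / (1 + nm f : ℝ) ^ 2 ≤ ∑ f ∈ S, 1 / (1 + (f.1.natAbs : ℝ)) ^ 2 := by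
        refine Finset.sum_le_sum fun f _ => ?_
        have h1 : (f.1.natAbs : ℝ) ≤ nm f := by exact_mod_cast le_max_left _ _
        gcongr
    _ = ∑ i ∈ S.image Prod.fst, 1 / (1 + (i.natAbs : ℝ)) ^ 2 :=
        (Finset.sum_image hinj (f := fun i : ℤ => 1 / (1 + (i.natAbs : ℝ)) ^ 2)).symm
    _ ≤ ∑ i ∈ Finset.Icc (-(L : ℤ)) L, 1 / (1 + (i.natAbs : ℝ)) ^ 2 := by
        refine Finset.sum_le_sum_of_subset_of_nonneg ?_ fun _ _ _ => by positivity
        intro i hi
        rw [Finset.mem_image] at hi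
        obtain ⟨f, hf, rfl⟩ := hi
        have := hL f hf
        rw [Finset.mem_Icc]
        simp only [nm] at this
        omega
    _ ≤ 3 - 2 / ((L : ℝ) + 1) := row_Icc L
    _ ≤ 3 := by
        have : (0 : ℝ) ≤ 2 / ((L : ℝ) + 1) := by positivity
        linarith

/-! ### two tips -/

theorem mir_inj (r : ℕ) : Function.Injective (mir r) := by
  intro f g h
  simp only [mir, Prod.mk.injEq] at h
  exact Prod.ext (by omega) h.2

/-- a sum over the faces in terms of the distance to the nearer tip -/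
theorem two_tips (r : ℕ) {G : ℕ → ℝ} {A : ℝ} {P : Z2 → Prop}
    (hP : ∀ f, P f → P (mir r f)) {L : ℕ}
    (h : ∀ S : Finset Z2, (∀ f ∈ S, nm f ≤ L ∧ P f) → ∑ f ∈ S, G (nm f) ≤ A) (S : Finset Z2)
    (hS : ∀ f ∈ S, ns r f ≤ L ∧ P f) : ∑ f ∈ S, G (ns r f) ≤ 2 * A := by
  classical
  rw [← Finset.sum_filter_add_sum_filter_not S fun f => nm f ≤ nm (mir r f)]
  have h1 : ∑ f ∈ S.filter (fun f => nm f ≤ nm (mir r f)), G (ns r f) ≤ A := by
    refine le_trans (le_of_eq (Finset.sum_congr rfl fun f hf => ?_)) (h _ fun f hf => ?_)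
    · rw [Finset.mem_filter] at hf
      rw [ns, min_eq_left hf.2]
    · rw [Finset.mem_filter] at hf
      have := hS f hf.1
      rw [ns, min_eq_left hf.2] at this
      exact this
  have h2 : ∑ f ∈ S.filter (fun f => ¬ nm f ≤ nm (mir r f)), G (ns r f) ≤ A := by
    have e : ∑ f ∈ S.filter (fun f => ¬ nm f ≤ nm (mir r f)), G (ns r f) =
        ∑ f ∈ (S.filter (fun f => ¬ nm f ≤ nm (mir r f))).image (mir r), G (nm f) := by
      rw [Finset.sum_image fun _ _ _ _ hh => mir_inj r hh]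
      refine Finset.sum_congr rfl fun f hf => ?_
      rw [Finset.mem_filter] at hf
      rw [ns, min_eq_right (by omega)]
    rw [e]
    refine h _ fun f hf => ?_
    rw [Finset.mem_image] at hf
    obtain ⟨g, hg, rfl⟩ := hf
    rw [Finset.mem_filter] at hg
    have := hS g hg.1
    rw [ns, min_eq_right (by omega)] at this
    exact ⟨this.1, hP g this.2⟩
  linarith

theorem ns2_le (r : ℕ) {L : ℕ} (S : Finset Z2) (hS : ∀ f ∈ S, ns r f ≤ L) :
    ∑ f ∈ S, 1 / (1 + ns r f : ℝ) ^ 2 ≤ 2 * (1 + 8 * Real.log (L + 1)) :=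
  two_tips r (G := fun n => 1 / (1 + n : ℝ) ^ 2) (P := fun _ => True)
    (fun _ _ => trivial) (fun _ h => sum2_le fun f hf => (h f hf).1) S
    (fun f hf => ⟨hS f hf, trivial⟩)

theorem ns4_le (r : ℕ) (S : Finset Z2) :
    ∑ f ∈ S, 1 / (1 + ns r f : ℝ) ^ 4 ≤ 18 := by
  have := two_tips r (G := fun n => 1 / (1 + n : ℝ) ^ 4)
    (P := fun _ => True) (fun _ _ => trivial) (L := S.sup (ns r)) (fun S h => sum4_le S) S
    (fun f hf => ⟨Finset.le_sup hf, trivial⟩)
  linarith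

theorem nsrow_le (r : ℕ) (c : ℤ) (S : Finset Z2) (hS : ∀ f ∈ S, f.2 = c) :
    ∑ f ∈ S, 1 / (1 + ns r f : ℝ) ^ 2 ≤ 6 := by
  have := two_tips r (G := fun n => 1 / (1 + n : ℝ) ^ 2)
    (P := fun f => f.2 = c) (fun _ h => h) (L := S.sup (ns r))
    (fun S h => row_le S c fun f hf => (h f hf).2) S (fun f hf => ⟨Finset.le_sup hf, hS f hf⟩)
  linarith

/-! ### bonds -/

/-- the lower left one of the two faces at a bond -/
def base (e : Bnd) : Z2 := if e.2 then lf e else rt e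

theorem dr_base (φ : Z2 → ℝ) (e : Bnd) :
    dr φ e = (if e.2 then -1 else 1) * (φ (stp (!e.2) (base e)) - φ (base e)) := by
  obtain ⟨⟨i, j⟩, d⟩ := e
  cases d <;> simp [dr, base, lf, rt, stp]

theorem dr_base_sq (φ : Z2 → ℝ) (e : Bnd) :
    dr φ e ^ 2 = (φ (stp (!e.2) (base e)) - φ (base e)) ^ 2 := by
  rw [dr_base, mul_pow]
  cases e.2 <;> simp

theorem base_inj (e e' : Bnd) (h : e.2 = e'.2) (h1 : base e = base e') : e = e' := by
  obtain ⟨⟨i, j⟩, d⟩ := e
  obtain ⟨⟨i', j'⟩, d'⟩ := e'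
  simp only at h
  subst h
  cases d <;> simp [base, lf, rt, Prod.ext_iff] at h1 ⊢ <;> exact h1

theorem sum_base {G : Z2 → ℝ} {A : ℝ} (hA : ∀ T : Finset Z2, ∑ f ∈ T, G f ≤ A)
    (S : Finset Bnd) : ∑ e ∈ S, G (base e) ≤ 2 * A := by
  classical
  rw [← Finset.sum_filter_add_sum_filter_not S fun e => e.2 = true]
  have h1 : ∑ e ∈ S.filter (fun e => e.2 = true), G (base e) ≤ A := by
    refine le_trans (le_of_eq ?_) (hA ((S.filter (fun e => e.2 = true)).image base))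
    rw [Finset.sum_image]
    intro e he e' he' h
    simp only [Finset.coe_filter, Set.mem_ofPred_eq] at he he'
    exact base_inj e e' (he.2.trans he'.2.symm) h
  have h2 : ∑ e ∈ S.filter (fun e => ¬ e.2 = true), G (base e) ≤ A := by
    refine le_trans (le_of_eq ?_) (hA ((S.filter (fun e => ¬ e.2 = true)).image base))
    rw [Finset.sum_image]
    intro e he e' he' h
    simp only [Finset.coe_filter, Set.mem_ofPred_eq, Bool.not_eq_true] at he he'
    exact base_inj e e' (he.2.trans he'.2.symm) h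
  linarith

/-! ### the tent -/

variable {K c1 : ℝ} {n0 r : ℕ} {t : Z2 → ℝ}

theorem Tent.K_nonneg (h : Tent K c1 n0 r t) : 0 ≤ K := (h.nonneg (0, 0)).trans (h.le _)

theorem far_nat (hc : c1 ≤ 1 / 8) (h : Tent K c1 n0 r t) {f : Z2} (hf : r ≤ ns r f) :
    t f = 0 := by
  refine h.far f ?_
  have h1 : (r : ℝ) ≤ ns r f := by exact_mod_cast hf
  have h2 : (0 : ℝ) ≤ r := Nat.cast_nonneg r
  nlinarith

theorem grad' (h : Tent K c1 n0 r t) (f : Z2) (d : Bool) :
    |t (stp d f) - t f| ≤ K / (1 + ns r f) := by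
  rw [le_div_iff₀ (by positivity), mul_comm]
  exact h.grad f d

theorem grad_sq (hc : c1 ≤ 1 / 8) (h : Tent K c1 n0 r t) (f : Z2) (d : Bool) :
    (t (stp d f) - t f) ^ 2 ≤ if ns r f ≤ r + 1 then K ^ 2 * (1 / (1 + ns r f : ℝ) ^ 2) else 0 := by
  split_ifs with h1
  · have h2 := grad' h f d
    have h3 := pow_le_pow_left₀ (abs_nonneg _) h2 2
    rw [sq_abs, div_pow] at h3
    rw [mul_one_div]
    exact h3
  · have h2 := (ns_stp r d f).2
    rw [far_nat hc h (f := f) (by omega), far_nat hc h (f := stp d f) (by omega)]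
    simp

theorem log_r2 (hr : 1 ≤ r) : Real.log ((r + 1 : ℕ) + 1 : ℝ) ≤ Real.log r + 2 := by
  have h1 : (1 : ℝ) ≤ r := by exact_mod_cast hr
  have h2 : ((r + 1 : ℕ) + 1 : ℝ) ≤ 3 * r := by push_cast; linarith
  have h3 := Real.log_le_log (by positivity) h2
  rw [Real.log_mul (by norm_num) (by positivity)] at h3
  have h4 := Real.log_le_sub_one_of_pos (show (0 : ℝ) < 3 by norm_num)
  linarith

/-- **energy of the tent** -/
theorem tent_energy (hc : c1 ≤ 1 / 8) (hr : 1 ≤ r) (h : Tent K c1 n0 r t) (S : Finset Bnd) :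
    ∑ e ∈ S, dr t e ^ 2 ≤ 72 * K ^ 2 * (1 + Real.log r) := by
  classical
  have hlog : 0 ≤ Real.log r := Real.log_natCast_nonneg r
  have key : ∀ T : Finset Z2, ∑ f ∈ T, (if ns r f ≤ r + 1 then K ^ 2 * (1 / (1 + ns r f : ℝ) ^ 2)
      else 0) ≤ K ^ 2 * (2 * (1 + 8 * (Real.log r + 2))) := by
    intro T
    rw [← Finset.sum_filter, ← Finset.mul_sum]
    refine mul_le_mul_of_nonneg_left ?_ (sq_nonneg _)
    have h1 := ns2_le r (L := r + 1) (T.filter fun f => ns r f ≤ r + 1)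
      (fun f hf => (Finset.mem_filter.1 hf).2)
    have h2 := log_r2 hr
    linarith
  have h1 := sum_base key S
  calc ∑ e ∈ S, dr t e ^ 2 ≤ ∑ e ∈ S, (fun f => if ns r f ≤ r + 1 then
        K ^ 2 * (1 / (1 + ns r f : ℝ) ^ 2) else 0) (base e) := by
        refine Finset.sum_le_sum fun e _ => ?_
        rw [dr_base_sq]
        exact grad_sq hc h _ _
    _ ≤ 2 * (K ^ 2 * (2 * (1 + 8 * (Real.log r + 2)))) := h1
    _ ≤ 72 * K ^ 2 * (1 + Real.log r) := by
        have : 0 ≤ K ^ 2 := sq_nonneg K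
        nlinarith

/-- the charges of the tent off the slits -/
theorem tent_lap (hc : c1 ≤ 1 / 8) (hr : 1 ≤ r) (h : Tent K c1 n0 r t) (F : Finset Z2)
    (hF : ∀ f ∈ F, f ∉ slit r) : ∑ f ∈ F, |lap t f| ≤ 36 * K * (1 + Real.log r) := by
  classical
  have hlog : 0 ≤ Real.log r := Real.log_natCast_nonneg r
  have hK := Tent.K_nonneg h
  have h0 : ∀ f ∈ F, |lap t f| ≤ if ns r f ≤ r + 1 then K * (1 / (1 + ns r f : ℝ) ^ 2) else 0 := by
    intro f hf
    split_ifs with h1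
    · rw [mul_one_div, le_div_iff₀ (by positivity), mul_comm]
      exact h.lap f (hF f hf)
    · have e1 : t f = 0 := far_nat hc h (by omega)
      have e2 : t (f.1 + 1, f.2) = 0 := far_nat hc h (by
        have := (ns_stp r false f).2
        simp only [stp, Bool.false_eq_true, if_false] at this
        omega)
      have e3 : t (f.1, f.2 + 1) = 0 := far_nat hc h (by
        have := (ns_stp r true f).2
        simp only [stp, if_true] at this
        omega)
      have e4 : t (f.1 - 1, f.2) = 0 := far_nat hc h (by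
        have := (ns_stp r false (f.1 - 1, f.2)).1
        simp only [stp, Bool.false_eq_true, if_false, sub_add_cancel, Prod.mk.eta] at this
        omega)
      have e5 : t (f.1, f.2 - 1) = 0 := far_nat hc h (by
        have := (ns_stp r true (f.1, f.2 - 1)).1
        simp only [stp, if_true, sub_add_cancel, Prod.mk.eta] at this
        omega)
      rw [lap, e1, e2, e3, e4, e5]
      simp
  refine (Finset.sum_le_sum h0).trans ?_
  rw [← Finset.sum_filter, ← Finset.mul_sum]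
  have h1 := ns2_le r (L := r + 1) (F.filter fun f => ns r f ≤ r + 1)
    (fun f hf => (Finset.mem_filter.1 hf).2)
  have h2 := log_r2 hr
  have h3 : ∑ i ∈ F.filter (fun f => ns r f ≤ r + 1), 1 / (1 + ns r i : ℝ) ^ 2 ≤
      36 * (1 + Real.log r) := by linarith
  calc K * ∑ i ∈ F.filter (fun f => ns r f ≤ r + 1), 1 / (1 + ns r i : ℝ) ^ 2
      ≤ K * (36 * (1 + Real.log r)) := mul_le_mul_of_nonneg_left h3 hK
    _ = 36 * K * (1 + Real.log r) := by ring

theorem v_energy {R : Finset Z2} {v : Z2 → ℝ} (hc : c1 ≤ 1 / 8) (hr : 1 ≤ r)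
    (h : Tent K c1 n0 r t) (hv : Harm R t v) (S : Finset Bnd) :
    ∑ e ∈ S, dr v e ^ 2 ≤ 72 * K ^ 2 * (1 + Real.log r) :=
  H376.energy_le hv.2 hv.1 (tent_energy hc hr h) S

theorem u_energy {R : Finset Z2} {v : Z2 → ℝ} (hc : c1 ≤ 1 / 8) (hr : 1 ≤ r)
    (h : Tent K c1 n0 r t) (hv : Harm R t v) (S : Finset Bnd) :
    ∑ e ∈ S, dr (fun f => t f - v f) e ^ 2 ≤ 288 * K ^ 2 * (1 + Real.log r) := by
  have h1 := tent_energy hc hr h S
  have h2 := v_energy hc hr h hv S
  have h3 : ∑ e ∈ S, dr (fun f => t f - v f) e ^ 2 ≤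
      ∑ e ∈ S, (2 * dr t e ^ 2 + 2 * dr v e ^ 2) := by
    refine Finset.sum_le_sum fun e _ => ?_
    simp only [dr]
    nlinarith [sq_nonneg (t (lf e) - t (rt e) + (v (lf e) - v (rt e)))]
  rw [Finset.sum_add_distrib, ← Finset.mul_sum, ← Finset.mul_sum] at h3
  linarith

/-- **S.EN0** -/
theorem stmtEn0 : StmtEn0 := by
  intro K c1 hK _ hc
  refine ⟨288 * K ^ 2 + 36 * K, by positivity, fun n0 r R t v hr h hv => ?_⟩
  have hlog : 0 ≤ Real.log r := Real.log_natCast_nonneg r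
  have hK2 : 0 ≤ K ^ 2 * (1 + Real.log r) := by positivity
  have hK3 : 0 ≤ K * (1 + Real.log r) := by positivity
  refine ⟨fun S => ?_, fun S => ?_, fun S => ?_, fun F hF => ?_⟩
  · have := tent_energy hc hr h S
    nlinarith
  · have := v_energy hc hr h hv S
    nlinarith
  · have := u_energy hc hr h hv S
    nlinarith
  · have := tent_lap hc hr h F hF
    nlinarith

/-! ### oscillation -/

theorem second_sq (h : Tent K c1 n0 r t) (f : Z2) (d d' : Bool) :
    (t (stp d (stp d' f)) - t (stp d' f) - (t (stp d f) - t f)) ^ 2 ≤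
      K ^ 2 * (1 / (1 + ns r f : ℝ) ^ 4) +
        9 * K ^ 2 * (if -3 ≤ f.2 ∧ f.2 ≤ -1 then 1 / (1 + ns r f : ℝ) ^ 2 else 0) := by
  have hK := Tent.K_nonneg h
  by_cases hs : f ∉ slit r ∧ stp d f ∉ slit r ∧ stp d' f ∉ slit r ∧ stp d (stp d' f) ∉ slit r
  · have h1 := h.second f d d' hs.1 hs.2.1 hs.2.2.1 hs.2.2.2
    have h2 : |t (stp d (stp d' f)) - t (stp d' f) - (t (stp d f) - t f)| ≤
        K / (1 + ns r f : ℝ) ^ 2 := by
      rw [le_div_iff₀ (by positivity), mul_comm]; exact h1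
    have h3 := pow_le_pow_left₀ (abs_nonneg _) h2 2
    rw [sq_abs, div_pow, ← pow_mul] at h3
    have h4 : (0 : ℝ) ≤ 9 * K ^ 2 * (if -3 ≤ f.2 ∧ f.2 ≤ -1 then 1 / (1 + ns r f : ℝ) ^ 2
        else 0) := by
      split_ifs <;> positivity
    rw [mul_one_div]
    linarith
  · have hf : -3 ≤ f.2 ∧ f.2 ≤ -1 := by
      by_contra hcon
      apply hs
      simp only [slit, Set.mem_ofPred_eq]
      cases d <;> cases d' <;> simp only [stp, Bool.false_eq_true, if_false, if_true] <;> omega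
    rw [if_pos hf]
    have h1 := grad' h f d
    have h2 := grad' h (stp d' f) d
    have h3 : K / (1 + ns r (stp d' f) : ℝ) ≤ 2 * (K / (1 + ns r f)) := by
      rw [mul_div_assoc', div_le_div_iff₀ (by positivity) (by positivity)]
      have h4 := (ns_stp r d' f).2
      have h5 : (1 + ns r f : ℝ) ≤ 2 * (1 + ns r (stp d' f)) := by
        have : 1 + ns r f ≤ 2 * (1 + ns r (stp d' f)) := by omega
        exact_mod_cast this
      nlinarith
    have h4 : |t (stp d (stp d' f)) - t (stp d' f) - (t (stp d f) - t f)| ≤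
        3 * (K / (1 + ns r f)) := by
      refine (abs_sub _ _).trans ?_
      linarith
    have h5 := pow_le_pow_left₀ (abs_nonneg _) h4 2
    rw [sq_abs, mul_pow, div_pow] at h5
    have h6 : 0 ≤ K ^ 2 * (1 / (1 + ns r f : ℝ) ^ 4) := by positivity
    have h7 : (3 : ℝ) ^ 2 * (K ^ 2 / (1 + ns r f : ℝ) ^ 2) =
        9 * K ^ 2 * (1 / (1 + ns r f : ℝ) ^ 2) := by ring
    rw [h7] at h5
    linarith

/-- unit shifts of the gradient of the tent -/
theorem tent_sh (h : Tent K c1 n0 r t) (d : Bool) : H376.Sh (dr t) (360 * K ^ 2) (H376.ud d) := by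
  classical
  intro S
  set G : Z2 → ℝ := fun f => K ^ 2 * (1 / (1 + ns r f : ℝ) ^ 4) +
        9 * K ^ 2 * (if -3 ≤ f.2 ∧ f.2 ≤ -1 then 1 / (1 + ns r f : ℝ) ^ 2 else 0) with hG
  have hA : ∀ T : Finset Z2, ∑ f ∈ T, G f ≤ 180 * K ^ 2 := by
    intro T
    simp only [hG]
    rw [Finset.sum_add_distrib, ← Finset.mul_sum, ← Finset.mul_sum, ← Finset.sum_filter]
    have h1 := ns4_le r T
    have h2 : ∑ f ∈ T.filter (fun f => -3 ≤ f.2 ∧ f.2 ≤ -1), 1 / (1 + ns r f : ℝ) ^ 2 ≤ 18 := by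
      have k := fun c : ℤ => nsrow_le r c (T.filter fun f => f.2 = c)
        (fun f hf => (Finset.mem_filter.1 hf).2)
      have k1 := k (-3)
      have k2 := k (-2)
      have k3 := k (-1)
      rw [Finset.sum_filter] at k1 k2 k3 ⊢
      have k4 : ∑ f ∈ T, (if -3 ≤ f.2 ∧ f.2 ≤ -1 then 1 / (1 + ns r f : ℝ) ^ 2 else 0) ≤
          ∑ f ∈ T, ((if f.2 = -3 then 1 / (1 + ns r f : ℝ) ^ 2 else 0) +
            (if f.2 = -2 then 1 / (1 + ns r f : ℝ) ^ 2 else 0) +
            (if f.2 = -1 then 1 / (1 + ns r f : ℝ) ^ 2 else 0)) := by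
        refine Finset.sum_le_sum fun f _ => ?_
        have hp : (0 : ℝ) ≤ 1 / (1 + ns r f : ℝ) ^ 2 := by positivity
        by_cases hf : -3 ≤ f.2 ∧ f.2 ≤ -1
        · rw [if_pos hf]
          rcases (by omega : f.2 = -3 ∨ f.2 = -2 ∨ f.2 = -1) with h4 | h4 | h4 <;>
            simp only [h4] <;> norm_num
        · rw [if_neg hf]
          split_ifs <;> positivity
      rw [Finset.sum_add_distrib, Finset.sum_add_distrib] at k4
      linarith
    have h3 : 0 ≤ K ^ 2 := sq_nonneg K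
    nlinarith
  have h1 := sum_base hA S
  have h2 : ∑ e ∈ S, (dr t (sh (H376.ud d) e) - dr t e) ^ 2 ≤ ∑ e ∈ S, G (base e) := by
    refine Finset.sum_le_sum fun e _ => ?_
    rw [← H376.dr_step, dr_base_sq]
    exact second_sq h _ _ _
  linarith

/-- **oscillation of the gradient of the tent** -/
theorem tent_osc (h : Tent K c1 n0 r t) (l : ℕ) (S : Finset Bnd) :
    osc l S (dr t) ≤ (2 * l + 1) ^ 2 * (4 ^ (l + 1) * (360 * K ^ 2)) :=
  H376.osc_le_of_unit (tent_sh h) l S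

end Vale.Agent.P159.T1.S.H130
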